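import Vale.Agent.H5.SnakyDFinal

namespace Vale.Agent.Results.P062.MakerWins

open Vale.Agent.H5.Snaky

/-- On the empty plane `ℤ²`, without handicap, Maker has a winning strategy in the achievement game
for Snaky; moreover there is a fixed number `K` such that the strategy wins within `K + 1` claims
of Maker against every legal play of Breaker. -/
theorem result : ∃ (σ : Strategy) (K : ℕ), WinsWithin σ K :=
  Vale.Agent.H5.Snaky.SnakyD.maker_wins

end Vale.Agent.Results.P062.MakerWins
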