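import Vale.Agent.H5.SnakyEFinal

namespace Vale.Agent.Results.P062.NonAdjacentReply

open Vale.Agent.H5.Snaky

/-- On the empty plane without handicap, Maker has a strategy that forces an allowed copy of Snaky
within a fixed number of claims against every legal play of Breaker whose first claim does not
share an edge with Maker's first claim. -/
theorem result : ∃ (σ : Strategy) (K : ℕ), WinsWithinUnlessAdjacent σ K :=
  Vale.Agent.H5.Snaky.SnakyE.maker_wins

end Vale.Agent.Results.P062.NonAdjacentReply
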